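import Vale.Agent.Lib.P069.Main

/-!
P069: there is a separable reflexive Banach space whose norm is asymptotically midpoint
uniformly convex and which has no equivalent asymptotically uniformly convex norm.
-/

namespace Vale.Agent.Results.P069.Disproof

open Vale.Agent.P069

/-- There is an infinite-dimensional separable reflexive real Banach space whose given norm is
AMUC, with modulus at least `sqrt (1 + t ^ 2 / 16) - 1`, and which has no equivalent AUC norm. -/
theorem result :
    ∃ (X : Type) (_ : NormedAddCommGroup X) (_ : NormedSpace ℝ X),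
      CompleteSpace X ∧ ¬ FiniteDimensional ℝ X ∧ TopologicalSpace.SeparableSpace X ∧
      ReflexiveSpace X ∧ AMUCRenormable X ∧ ¬ AUCRenormable X ∧
      IsAMUC (normSeminorm ℝ X) ∧
      ∀ t : ℝ, 0 < t →
        ((Real.sqrt (1 + t ^ 2 / 16) - 1 : ℝ) : EReal) ≤ amucModulus (normSeminorm ℝ X) t :=
  ⟨X, inferInstance, inferInstance, inferInstance, not_finiteDimensional_X, separable_X,
    reflexive_X, ⟨normSeminorm ℝ X, ⟨1, 1, one_pos, fun x => by simp⟩, amuc_norm⟩,
    not_auc_renormable, amuc_norm, amuc_lower⟩

end Vale.Agent.Results.P069.Disproof
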